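import Mathlib
import Vale.Agent.Lib.P305.Defs
import Vale.Agent.Lib.P305.Round
import Vale.Agent.Lib.P305.Lift

/-!
# P305: from one bipartite matching to a general matching, up to the odd cycle packing number

Every matching `M'` of the bipartite double cover of a finite simple graph `G` can be rounded to a
matching `M` of `G` (using only projections of edges of `M'`) together with `t` pairwise
vertex-disjoint odd cycles of `G` such that `|M'| ≤ 2 |M| + t`.  If `M'` is a maximum matching of
the double cover, then `M` misses the maximum matching size of `G` by at most `t / 2`.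
-/

namespace Vale.Agent.Results.P305.DoubleCoverRounding

open Vale.Agent.Lib.P305

theorem result {V : Type*} [Fintype V] (G : SimpleGraph V) (M' : Finset (Sym2 (V ⊕ V)))
    (hM' : IsMatchingSet G.bipartiteDoubleCover M') :
    ∃ (M : Finset (Sym2 V)) (t : ℕ) (k : Fin t → ℕ) (c : Fin t → ℕ → V),
      IsMatchingSet G M ∧
      (∀ e ∈ M, ∃ u v, e = s(u, v) ∧ s(Sum.inl u, Sum.inr v) ∈ M') ∧
      (∀ i, Odd (k i) ∧ IsCycleSeq G (k i) (c i)) ∧
      (∀ i j, i ≠ j → ∀ a b, c i a ≠ c j b) ∧
      ∑ i, k i ≤ Fintype.card V ∧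
      M'.card ≤ 2 * M.card + t ∧
      ((∀ N' : Finset (Sym2 (V ⊕ V)), IsMatchingSet G.bipartiteDoubleCover N' →
          N'.card ≤ M'.card) →
        ∀ N : Finset (Sym2 V), IsMatchingSet G N → 2 * N.card ≤ 2 * M.card + t) := by
  obtain ⟨M, t, k, c, hM, hproj, hcyc, hdisj, hcard⟩ := round G M' hM'
  refine ⟨M, t, k, c, hM, hproj, hcyc, hdisj, ?_, hcard, ?_⟩
  · have hinj : Function.Injective (fun x : (Σ i : Fin t, Fin (k i)) => c x.1 x.2) := by
      rintro ⟨i, a⟩ ⟨j, b⟩ h
      have hij : i = j := by
        by_contra hne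
        exact hdisj i j hne a b h
      subst hij
      have hab : (a : ℕ) = b := (hcyc i).2.2.2 (by simp) (by simp) h
      rw [Fin.ext hab]
    have := Fintype.card_le_of_injective _ hinj
    simpa [Fintype.card_sigma] using this
  · intro hmax N hN
    obtain ⟨N', hN', hN'card⟩ := lift G N hN
    have := hmax N' hN'
    omega

end Vale.Agent.Results.P305.DoubleCoverRounding
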